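import Vale.Agent.P146.R3.H952.Given
import Vale.Agent.P146.R3.H49.Diff
import Vale.Agent.P146.R3.X.B2

/-!
# P146: the hypotheses on the R-transform hold
-/

open MeasureTheory Filter Topology Set

namespace Vale.Agent.P146.R3.H952

open Vale.Agent Vale.Agent.P146.R3 Vale.Agent.P157.Par

theorem hypR {b : ℝ} (hb : 0 < b) : HypR b := by
  intro k e he
  obtain ⟨s₀, h0, h⟩ := H49.n5a b hb k e he
  refine ⟨s₀, h0, fun s hs y hy => ?_⟩
  have h1 := h s hs y hy
  have e1 : P166.stInv (muS b k s) y - P166.stInv (muS b k 0) y -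
      2 * (k + 1) * min (b * y) 1 ^ k * s =
      P166.stInv (muS b k s) y - P166.stInv (muS b k 0) y -
      2 * s * ((k + 1) * min (b * y) 1 ^ k) := by ring
  rw [e1]
  exact h1

theorem hypI (b : ℝ) : HypI b := by
  intro k s K m q hm hq hq0 hq1
  have hE : P166.F.Expo K m :=
    { m0 := hm.1
      mK := hm.2.1
      mono := fun l hl => (hm.2.2 l hl).le
      pos := by have := hm.2.2 0 (Nat.zero_le K); rw [hm.1] at this; exact this }
  have h := P166.F.rt2_ii (H49.isCompact_support b k s) one_pos hE hq0 hq.2 hq1.le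
  simp only [one_mul] at h
  exact h

variable {b : ℝ}

/-- **The derivative of the perturbed pressures**, no hypothesis on the R-transform. -/
theorem deriv_prof (hb : 0 < b) {x : ℝ → ℝ} (hx : MinProf b x) (k : ℕ) {f : ℝ → ℝ}
    (hconv : ConvexOn ℝ univ f) (hglb : ∀ s, IsGLB (PV 1 (muS b k s)) (f s)) :
    HasDerivAt f ((k + 1) * ∫ y in (0 : ℝ)..1, ll b x y ^ k) 0 :=
  deriv_of_minProf hb (hypR hb) (hypI b) hx k hconv hglb

end Vale.Agent.P146.R3.H952
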