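import Vale.Agent.P146.R3.H952.Uniq

/-!
# P146: the limit profile along a given minimising sequence
-/

open MeasureTheory Filter Topology Set

namespace Vale.Agent.P146.R3.H952

open Vale.Agent Vale.Agent.P146.R3 Vale.Agent.P157.Par

variable {b : ℝ}

lemma ll_xs {K : ℕ} {m q : ℕ → ℝ} (hm : Exponents K m) (hq : Path K q) (hq1 : q K ≤ 1) {y : ℝ}
    (hy : y ≤ 1) : ll b (xs K m q) y = min (b * lam K m q y) 1 := by
  unfold ll
  have h := prim_xs hm hq hq1 hy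
  unfold prim at h
  rw [h]

/-- **The profiles of a given minimising sequence converge to the limit profile.** -/
theorem given_seq (hb : 0 < b) (hR : HypR b) (hI : HypI b) (hF : HypF b) {K : ℕ → ℕ}
    {m q : ℕ → ℕ → ℝ} {v : ℕ → ℝ} {p : ℝ}
    (hval : ∀ j, IsVal 1 (muS b 0 0) (K j) (m j) (q j) (v j))
    (hp : IsGLB (PV 1 (muS b 0 0)) p) (hv : Tendsto v atTop (𝓝 p)) {x : ℝ → ℝ}
    (hx : MinProf b x) {ε : ℝ} (hε : 0 < ε) :
    ∀ᶠ j in atTop, ∀ y ∈ Icc (0 : ℝ) 1, |min (b * lam (K j) (m j) (q j) y) 1 - ll b x y| ≤ ε := by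
  obtain ⟨δ, hδ, h⟩ := near_min hb hR hI hF hx hε
  have h1 : ∀ᶠ j in atTop, v j < p + δ := (tendsto_order.1 hv).2 _ (by linarith)
  filter_upwards [h1] with j hj y hy
  have h2 := h (K j) (m j) (q j) (v j) (hval j) (fun w hw => by
    have := hp.1 hw
    linarith) y hy
  rwa [ll_xs (hval j).1 (hval j).2.1 (hval j).2.2.2.1.le hy.2] at h2

/-- the limit of the profiles of a given minimising sequence is the limit profile -/
theorem given_lim (hb : 0 < b) (hR : HypR b) (hI : HypI b) (hF : HypF b) {K : ℕ → ℕ}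
    {m q : ℕ → ℕ → ℝ} {v : ℕ → ℝ} {p : ℝ}
    (hval : ∀ j, IsVal 1 (muS b 0 0) (K j) (m j) (q j) (v j))
    (hp : IsGLB (PV 1 (muS b 0 0)) p) (hv : Tendsto v atTop (𝓝 p)) {l : ℝ → ℝ}
    (hl : ∀ y ∈ Icc (0 : ℝ) 1,
      Tendsto (fun j => min (b * lam (K j) (m j) (q j) y) 1) atTop (𝓝 (l y))) {x : ℝ → ℝ}
    (hx : MinProf b x) : ∀ y ∈ Icc (0 : ℝ) 1, ll b x y = l y := by
  intro y hy
  refine tendsto_nhds_unique ?_ (hl y hy)
  rw [Metric.tendsto_nhds]
  intro ε hε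
  filter_upwards [given_seq hb hR hI hF hval hp hv hx (half_pos hε)] with j hj
  rw [Real.dist_eq]
  have := hj y hy
  linarith

/-- the derivative of the perturbed pressures in terms of the profiles of a given minimising
sequence (`l` only has to be the pointwise limit along the sequence) -/
theorem given_deriv (hb : 0 < b) (hR : HypR b) (hI : HypI b) (hF : HypF b) {K : ℕ → ℕ}
    {m q : ℕ → ℕ → ℝ} {v : ℕ → ℝ} {p : ℝ}
    (hval : ∀ j, IsVal 1 (muS b 0 0) (K j) (m j) (q j) (v j))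
    (hp : IsGLB (PV 1 (muS b 0 0)) p) (hv : Tendsto v atTop (𝓝 p)) {l : ℝ → ℝ}
    (hl : ∀ y ∈ Icc (0 : ℝ) 1,
      Tendsto (fun j => min (b * lam (K j) (m j) (q j) y) 1) atTop (𝓝 (l y))) (k : ℕ)
    {f : ℝ → ℝ} (hconv : ConvexOn ℝ univ f) (hglb : ∀ s, IsGLB (PV 1 (muS b k s)) (f s)) :
    HasDerivAt f ((k + 1) * ∫ y in (0 : ℝ)..1, l y ^ k) 0 := by
  obtain ⟨x, hx⟩ := exists_minProf hp
  have h := deriv_of_minProf hb hR hI hx k hconv hglb
  have e : ∫ y in (0 : ℝ)..1, ll b x y ^ k = ∫ y in (0 : ℝ)..1, l y ^ k := by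
    refine intervalIntegral.integral_congr fun y hy => ?_
    rw [uIcc_of_le zero_le_one] at hy
    rw [given_lim hb hR hI hF hval hp hv hl hx y hy]
  rwa [e] at h

end Vale.Agent.P146.R3.H952
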