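import Mathlib

/-!
# P146: Laplace asymptotics of the moments of a profile, and an Abelian lemma
-/

open MeasureTheory Filter Topology Set

namespace Vale.Agent.P146.R3.H952

/-- **Laplace asymptotics of the moments of a profile with a quadratic contact.** -/
theorem laplace {l : ℝ → ℝ} (hanti : AntitoneOn l (Icc 0 1))
    (h01 : ∀ y ∈ Icc (0 : ℝ) 1, l y ∈ Icc (0 : ℝ) 1) {c a : ℝ} (hc : 0 < c)
    (hcy : ∀ y ∈ Icc (0 : ℝ) 1, l y ≤ 1 - c * y ^ 2)
    (hlim : Tendsto (fun y => (1 - l y) / y ^ 2) (𝓝[>] 0) (𝓝 a)) :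
    Tendsto (fun k : ℕ => Real.sqrt k * ∫ y in (0 : ℝ)..1, l y ^ k) atTop
      (𝓝 (Real.sqrt (Real.pi / a) / 2)) := by
  have hmem : ∀ {k : ℕ} {u : ℝ}, u ∈ Ioc (0 : ℝ) (Real.sqrt k) →
      u / Real.sqrt k ∈ Icc (0 : ℝ) 1 := by
    intro k u hu
    have h0 : 0 ≤ Real.sqrt k := Real.sqrt_nonneg _
    exact ⟨div_nonneg hu.1.le h0, div_le_one_of_le₀ hu.2 h0⟩
  have h1 : Tendsto (fun k : ℕ => ∫ u in Ioi (0 : ℝ),
      (Ioc (0 : ℝ) (Real.sqrt k)).indicator (fun u => l (u / Real.sqrt k) ^ k) u) atTop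
      (𝓝 (∫ u in Ioi (0 : ℝ), Real.exp (-a * u ^ 2))) := by
    refine tendsto_integral_of_dominated_convergence (fun u => Real.exp (-c * u ^ 2)) ?_ ?_ ?_ ?_
    · intro k
      rw [aestronglyMeasurable_indicator_iff measurableSet_Ioc]
      refine (aemeasurable_restrict_of_antitoneOn measurableSet_Ioc ?_).aestronglyMeasurable
      intro u hu v hv huv
      have h2 := hanti (hmem hu) (hmem hv)
        (div_le_div_of_nonneg_right huv (Real.sqrt_nonneg _))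
      exact pow_le_pow_left₀ (h01 _ (hmem hv)).1 h2 k
    · exact (integrable_exp_neg_mul_sq hc).integrableOn
    · intro k
      refine Filter.Eventually.of_forall fun u => ?_
      by_cases hu : u ∈ Ioc (0 : ℝ) (Real.sqrt k)
      · rw [indicator_of_mem hu, Real.norm_eq_abs]
        have hy := hmem hu
        have h2 := h01 _ hy
        have hk : (0 : ℝ) < Real.sqrt k := hu.1.trans_le hu.2
        have hk2 : Real.sqrt k ^ 2 = k := Real.sq_sqrt (Nat.cast_nonneg k)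
        have hk0 : (0 : ℝ) < k := by rw [← hk2]; positivity
        rw [abs_of_nonneg (pow_nonneg h2.1 k)]
        have h3 : l (u / Real.sqrt k) ≤ Real.exp (-(c * (u / Real.sqrt k) ^ 2)) := by
          have := Real.add_one_le_exp (-(c * (u / Real.sqrt k) ^ 2))
          linarith [hcy _ hy]
        refine (pow_le_pow_left₀ h2.1 h3 k).trans (le_of_eq ?_)
        rw [← Real.exp_nat_mul]
        congr 1
        rw [div_pow, hk2]
        field_simp
      · rw [indicator_of_notMem hu, norm_zero]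
        exact (Real.exp_pos _).le
    · rw [ae_restrict_iff' measurableSet_Ioi]
      refine Filter.Eventually.of_forall fun u hu => ?_
      have hu0 : (0 : ℝ) < u := hu
      have ts : Tendsto (fun k : ℕ => Real.sqrt k) atTop atTop :=
        Real.tendsto_sqrt_atTop.comp tendsto_natCast_atTop_atTop
      have h2 : ∀ᶠ k : ℕ in atTop, u ≤ Real.sqrt k := ts.eventually_ge_atTop u
      have h3 : Tendsto (fun k : ℕ => u / Real.sqrt k) atTop (𝓝[>] 0) := by
        rw [tendsto_nhdsWithin_iff]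
        refine ⟨ts.const_div_atTop u, ?_⟩
        filter_upwards [h2] with k hk
        exact div_pos hu0 (hu0.trans_le hk)
      have h4 := hlim.comp h3
      have h5 : Tendsto (fun k : ℕ => (k : ℝ) * (l (u / Real.sqrt k) - 1)) atTop
          (𝓝 (-a * u ^ 2)) := by
        have h6 : Tendsto (fun k : ℕ => -((1 - l (u / Real.sqrt k)) / (u / Real.sqrt k) ^ 2) *
            u ^ 2) atTop (𝓝 (-a * u ^ 2)) := (h4.neg).mul_const _
        refine h6.congr' ?_
        filter_upwards [h2] with k hk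
        have hk1 : (0 : ℝ) < Real.sqrt k := hu0.trans_le hk
        have hk2 : Real.sqrt k ^ 2 = k := Real.sq_sqrt (Nat.cast_nonneg k)
        have hk0 : (0 : ℝ) < k := by rw [← hk2]; positivity
        rw [div_pow, hk2]
        field_simp
        ring
      have h7 := Real.tendsto_one_add_pow_exp_of_tendsto h5
      refine h7.congr' ?_
      filter_upwards [h2] with k hk
      have hmu : u ∈ Ioc (0 : ℝ) (Real.sqrt k) := ⟨hu0, hk⟩
      rw [indicator_of_mem hmu]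
      congr 1
      ring
  rw [integral_gaussian_Ioi] at h1
  refine h1.congr fun k => ?_
  rcases Nat.eq_zero_or_pos k with hk | hk
  · subst hk
    simp
  · have hk1 : (0 : ℝ) < Real.sqrt k := Real.sqrt_pos.2 (by exact_mod_cast hk)
    have h2 := intervalIntegral.integral_comp_div (a := 0) (b := Real.sqrt k)
      (f := fun y => l y ^ k) hk1.ne'
    rw [zero_div, div_self hk1.ne', smul_eq_mul] at h2
    rw [← h2, integral_indicator measurableSet_Ioc, Measure.restrict_restrict measurableSet_Ioc,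
      intervalIntegral.integral_of_le hk1.le]
    congr 2
    exact inter_eq_left.2 fun u hu => hu.1

/-- the constants of a quadratic contact -/
lemma contact {l : ℝ → ℝ} (hanti : AntitoneOn l (Icc 0 1))
    (h01 : ∀ y ∈ Icc (0 : ℝ) 1, l y ∈ Icc (0 : ℝ) 1) (hlt : ∀ y ∈ Ioc (0 : ℝ) 1, l y < 1)
    {a C y₀ : ℝ} (ha : 0 < a) (hy₀ : 0 < y₀)
    (h : ∀ y, 0 ≤ y → y ≤ y₀ → |1 - l y - a * y ^ 2| ≤ C * y ^ (5 / 2 : ℝ)) :
    (∃ c > 0, ∀ y ∈ Icc (0 : ℝ) 1, l y ≤ 1 - c * y ^ 2) ∧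
      Tendsto (fun y => (1 - l y) / y ^ 2) (𝓝[>] 0) (𝓝 a) := by
  have hsq : ∀ y : ℝ, 0 < y → y ^ (5 / 2 : ℝ) = y ^ 2 * Real.sqrt y := by
    intro y hy
    rw [Real.sqrt_eq_rpow, ← Real.rpow_natCast, ← Real.rpow_add hy]
    norm_num
  have hlim : Tendsto (fun y => (1 - l y) / y ^ 2) (𝓝[>] 0) (𝓝 a) := by
    have h1 : Tendsto (fun y : ℝ => |C| * Real.sqrt y) (𝓝[>] 0) (𝓝 0) := by
      have : Tendsto (fun y : ℝ => |C| * Real.sqrt y) (𝓝 0) (𝓝 (|C| * Real.sqrt 0)) :=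
        (continuous_const.mul Real.continuous_sqrt).tendsto 0
      rw [Real.sqrt_zero, mul_zero] at this
      exact this.mono_left nhdsWithin_le_nhds
    rw [tendsto_iff_norm_sub_tendsto_zero]
    refine squeeze_zero' (Filter.Eventually.of_forall fun y => norm_nonneg _) ?_ h1
    have h2 : ∀ᶠ y : ℝ in 𝓝[>] 0, y ≤ y₀ :=
      (eventually_le_nhds hy₀).filter_mono nhdsWithin_le_nhds
    filter_upwards [h2, self_mem_nhdsWithin] with y hy hy0
    have hy0' : (0 : ℝ) < y := hy0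
    have h3 := h y hy0'.le hy
    rw [hsq y hy0'] at h3
    have e : (1 - l y) / y ^ 2 - a = (1 - l y - a * y ^ 2) / y ^ 2 := by
      field_simp
    rw [e, norm_div, Real.norm_eq_abs, Real.norm_eq_abs, abs_of_pos (by positivity : 0 < y ^ 2),
      div_le_iff₀ (by positivity)]
    refine h3.trans ?_
    have : C * (y ^ 2 * Real.sqrt y) ≤ |C| * (y ^ 2 * Real.sqrt y) :=
      mul_le_mul_of_nonneg_right (le_abs_self C) (by positivity)
    linarith
  refine ⟨?_, hlim⟩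
  have h1 : ∀ᶠ y : ℝ in 𝓝[>] 0, a / 2 < (1 - l y) / y ^ 2 :=
    (tendsto_order.1 hlim).1 _ (by linarith)
  rw [eventually_nhdsWithin_iff, Metric.eventually_nhds_iff] at h1
  obtain ⟨δ, hδ, h2⟩ := h1
  obtain ⟨y₁, hy₁⟩ : ∃ y₁ : ℝ, y₁ = min (δ / 2) 1 := ⟨_, rfl⟩
  have hy1 : 0 < y₁ := by rw [hy₁]; exact lt_min (half_pos hδ) one_pos
  have hy1' : y₁ ≤ 1 := by rw [hy₁]; exact min_le_right _ _
  have hy1d : y₁ < δ := by
    rw [hy₁]; exact (min_le_left _ _).trans_lt (half_lt_self hδ)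
  have hl1 := hlt y₁ ⟨hy1, hy1'⟩
  refine ⟨min (a / 2) (1 - l y₁), lt_min (half_pos ha) (by linarith), fun y hy => ?_⟩
  rcases le_or_gt y y₁ with h3 | h3
  · rcases hy.1.eq_or_lt with h4 | h4
    · rw [← h4]
      have := (h01 0 ⟨le_rfl, zero_le_one⟩).2
      simpa using this
    · have h5 := h2 (y := y) (by rw [Real.dist_eq, sub_zero, abs_of_pos h4]; linarith) h4
      rw [lt_div_iff₀ (by positivity)] at h5
      have h6 : min (a / 2) (1 - l y₁) * y ^ 2 ≤ a / 2 * y ^ 2 :=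
        mul_le_mul_of_nonneg_right (min_le_left _ _) (by positivity)
      linarith
  · have h5 := hanti ⟨hy1.le, hy1'⟩ hy h3.le
    have h6 : min (a / 2) (1 - l y₁) * y ^ 2 ≤ (1 - l y₁) * 1 := by
      refine mul_le_mul (min_le_right _ _) (pow_le_one₀ hy.1 hy.2) (by positivity) ?_
      linarith
    linarith

/-- **(P1)** `m_k² / (k+1) → π / (4 a)`. -/
theorem moments_lim {l : ℝ → ℝ} (hanti : AntitoneOn l (Icc 0 1))
    (h01 : ∀ y ∈ Icc (0 : ℝ) 1, l y ∈ Icc (0 : ℝ) 1) (hlt : ∀ y ∈ Ioc (0 : ℝ) 1, l y < 1)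
    {a C y₀ : ℝ} (ha : 0 < a) (hy₀ : 0 < y₀)
    (h : ∀ y, 0 ≤ y → y ≤ y₀ → |1 - l y - a * y ^ 2| ≤ C * y ^ (5 / 2 : ℝ)) :
    Tendsto (fun k : ℕ => ((k + 1) * ∫ y in (0 : ℝ)..1, l y ^ k) ^ 2 / ((k : ℝ) + 1)) atTop
      (𝓝 (Real.pi / (4 * a))) := by
  obtain ⟨⟨c, hc, hcy⟩, hlim⟩ := contact hanti h01 hlt ha hy₀ h
  have h1 := laplace hanti h01 hc hcy hlim
  have h2 : Tendsto (fun k : ℕ => (1 + 1 / (k : ℝ))) atTop (𝓝 (1 + 0)) :=
    tendsto_const_nhds.add tendsto_one_div_atTop_nhds_zero_nat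
  have h3 := h2.mul (h1.pow 2)
  have e : (1 + 0) * (Real.sqrt (Real.pi / a) / 2) ^ 2 = Real.pi / (4 * a) := by
    rw [div_pow, Real.sq_sqrt (by positivity)]
    field_simp
    ring
  rw [e] at h3
  refine h3.congr' ?_
  filter_upwards [eventually_gt_atTop 0] with k hk
  have hk0 : (0 : ℝ) < k := by exact_mod_cast hk
  rw [mul_pow (Real.sqrt _), Real.sq_sqrt hk0.le]
  field_simp

/-- the limit of the Abel means of the coefficients -/
theorem abel_lim {c : ℕ → ℝ} {L : ℝ} (hc : Tendsto c atTop (𝓝 L)) :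
    Tendsto (fun t : ℝ => (1 - t) * ∑' k, c k * t ^ k) (𝓝[<] 1) (𝓝 L) := by
  obtain ⟨f, hf⟩ : ∃ f : ℕ → ℝ, ∀ n, f n = c n - if n = 0 then 0 else c (n - 1) :=
    ⟨_, fun _ => rfl⟩
  have hsum : ∀ n, ∑ i ∈ Finset.range (n + 1), f i = c n := by
    intro n
    induction n with
    | zero => simp [hf]
    | succ n ih => rw [Finset.sum_range_succ, ih, hf]; simp
  have h1 : Tendsto (fun n => ∑ i ∈ Finset.range n, f i) atTop (𝓝 L) := by
    rw [← tendsto_add_atTop_iff_nat 1]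
    exact hc.congr fun n => (hsum n).symm
  have h2 := Real.tendsto_tsum_powerSeries_nhdsWithin_lt h1
  refine h2.congr' ?_
  obtain ⟨B, hB⟩ : ∃ B, ∀ k, |c k| ≤ B := by
    obtain ⟨B, hB⟩ := hc.abs.bddAbove_range
    exact ⟨B, fun k => hB ⟨k, rfl⟩⟩
  have h3 : ∀ᶠ t : ℝ in 𝓝[<] 1, 0 < t :=
    (eventually_gt_nhds one_pos).filter_mono nhdsWithin_le_nhds
  filter_upwards [h3, self_mem_nhdsWithin] with t ht0 ht1
  have ht1' : t < 1 := ht1
  have s1 : Summable fun k => c k * t ^ k := by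
    refine Summable.of_norm_bounded (g := fun k => B * t ^ k)
      ((summable_geometric_of_lt_one ht0.le ht1').mul_left B) fun k => ?_
    rw [norm_mul, Real.norm_eq_abs, Real.norm_eq_abs, abs_of_pos (pow_pos ht0 k)]
    exact mul_le_mul_of_nonneg_right (hB k) (pow_pos ht0 k).le
  have s2 : Summable fun k => c k * t ^ (k + 1) := by
    have := s1.mul_left t
    refine this.congr fun k => ?_
    ring
  have s3 : Summable fun k => c (k + 1) * t ^ (k + 1) := (summable_nat_add_iff 1).2 s1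
  have s4 : Summable fun k => f k * t ^ k := by
    rw [← summable_nat_add_iff 1]
    refine (s3.sub s2).congr fun k => ?_
    rw [hf]
    simp only [Nat.add_eq_zero_iff, one_ne_zero, and_false, if_false, Nat.add_sub_cancel]
    ring
  rw [s4.tsum_eq_zero_add]
  have e1 : ∀ k, f (k + 1) * t ^ (k + 1) = c (k + 1) * t ^ (k + 1) - t * (c k * t ^ k) := by
    intro k
    rw [hf]
    simp only [Nat.add_eq_zero_iff, one_ne_zero, and_false, if_false, Nat.add_sub_cancel]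
    ring
  simp_rw [e1]
  rw [s3.tsum_sub (s1.mul_left t), tsum_mul_left, sub_mul, one_mul]
  have e2 : f 0 * t ^ 0 = c 0 * t ^ 0 := by rw [hf]; simp
  rw [e2, ← add_sub_assoc, ← s1.tsum_eq_zero_add]

/-- the same with the first term removed and one more power of `t` -/
theorem abel_lim' {c : ℕ → ℝ} {L : ℝ} (hc : Tendsto c atTop (𝓝 L)) :
    Tendsto (fun t : ℝ => (1 - t) * ∑' k, c (k + 1) * t ^ (k + 2)) (𝓝[<] 1) (𝓝 L) := by
  have h1 := abel_lim (c := fun k => c (k + 1)) (hc.comp (tendsto_add_atTop_nat 1))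
  have h2 : Tendsto (fun t : ℝ => t ^ 2) (𝓝[<] 1) (𝓝 (1 ^ 2)) :=
    ((continuous_pow 2).tendsto 1).mono_left nhdsWithin_le_nhds
  have h3 := h2.mul h1
  rw [one_pow, one_mul] at h3
  refine h3.congr fun t => ?_
  have e : ∀ k, c (k + 1) * t ^ (k + 2) = t ^ 2 * (c (k + 1) * t ^ k) := fun k => by ring
  simp_rw [e]
  rw [tsum_mul_left]
  ring

/-- **(P1) + (P2)**: `(1-t) (b²/2) ∑_{k≥1} t^(k+1) m_k²/(k+1) → π b² / (8 a)`. -/
theorem kinf_lim {l : ℝ → ℝ} (hanti : AntitoneOn l (Icc 0 1))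
    (h01 : ∀ y ∈ Icc (0 : ℝ) 1, l y ∈ Icc (0 : ℝ) 1) (hlt : ∀ y ∈ Ioc (0 : ℝ) 1, l y < 1)
    {a C y₀ : ℝ} (ha : 0 < a) (hy₀ : 0 < y₀)
    (h : ∀ y, 0 ≤ y → y ≤ y₀ → |1 - l y - a * y ^ 2| ≤ C * y ^ (5 / 2 : ℝ)) (b : ℝ) :
    Tendsto (fun t : ℝ => (1 - t) * (b ^ 2 / 2 * ∑' k : ℕ, t ^ (k + 2) *
      ((((k + 1 : ℕ) : ℝ) + 1) * ∫ y in (0 : ℝ)..1, l y ^ (k + 1)) ^ 2 /
        (((k + 1 : ℕ) : ℝ) + 1))) (𝓝[<] 1) (𝓝 (Real.pi * b ^ 2 / (8 * a))) := by
  have h1 := (abel_lim' (moments_lim hanti h01 hlt ha hy₀ h)).const_mul (b ^ 2 / 2)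
  have e : b ^ 2 / 2 * (Real.pi / (4 * a)) = Real.pi * b ^ 2 / (8 * a) := by
    field_simp
    ring
  rw [e] at h1
  refine h1.congr fun t => ?_
  have e2 : ∀ k : ℕ, t ^ (k + 2) *
      ((((k + 1 : ℕ) : ℝ) + 1) * ∫ y in (0 : ℝ)..1, l y ^ (k + 1)) ^ 2 /
        (((k + 1 : ℕ) : ℝ) + 1) =
      ((((k + 1 : ℕ) : ℝ) + 1) * ∫ y in (0 : ℝ)..1, l y ^ (k + 1)) ^ 2 /
        (((k + 1 : ℕ) : ℝ) + 1) * t ^ (k + 2) := fun k => by ring
  simp_rw [e2]
  ring

/-- lower bound of the moments of a Lipschitz profile with `l 0 = 1` -/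
theorem moments_low {l : ℝ → ℝ} {b : ℝ} (hb : 1 ≤ b)
    (h01 : ∀ y ∈ Icc (0 : ℝ) 1, l y ∈ Icc (0 : ℝ) 1) (hanti : AntitoneOn l (Icc 0 1))
    (hl : ∀ y ∈ Icc (0 : ℝ) 1, 1 - b * y ≤ l y) (k : ℕ) :
    1 / b ≤ (k + 1) * ∫ y in (0 : ℝ)..1, l y ^ k := by
  have hb0 : 0 < b := by linarith
  have hb1 : 1 / b ≤ 1 := by rw [div_le_one hb0]; exact hb
  have hb2 : (0 : ℝ) ≤ 1 / b := by positivity
  have i1 : ∀ {c d : ℝ}, c ∈ Icc (0 : ℝ) 1 → d ∈ Icc (0 : ℝ) 1 →
      IntervalIntegrable (fun y => l y ^ k) volume c d := by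
    intro c d hc hd
    have hs : uIcc c d ⊆ Icc (0 : ℝ) 1 := by
      rw [uIcc]
      exact Icc_subset_Icc (le_inf hc.1 hd.1) (sup_le hc.2 hd.2)
    exact (AntitoneOn.intervalIntegrable fun x hx y hy hxy =>
      pow_le_pow_left₀ (h01 _ (hs hy)).1 (hanti (hs hx) (hs hy) hxy) k)
  have h1 : ∫ y in (0 : ℝ)..(1 / b), (1 - b * y) ^ k ≤ ∫ y in (0 : ℝ)..(1 / b), l y ^ k := by
    refine intervalIntegral.integral_mono_on hb2
      (Continuous.intervalIntegrable (by fun_prop) _ _)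
      (i1 ⟨le_rfl, zero_le_one⟩ ⟨hb2, hb1⟩) fun y hy => ?_
    have hy1 : y ≤ 1 := hy.2.trans hb1
    have h2 : 0 ≤ 1 - b * y := by
      have := mul_le_mul_of_nonneg_left hy.2 hb0.le
      rw [mul_one_div_cancel hb0.ne'] at this
      linarith
    exact pow_le_pow_left₀ h2 (hl y ⟨hy.1, hy1⟩) k
  have h2 : ∫ y in (0 : ℝ)..(1 / b), (1 - b * y) ^ k = 1 / (b * (k + 1)) := by
    have h3 := intervalIntegral.integral_comp_sub_mul (a := 0) (b := 1 / b)
      (fun u : ℝ => u ^ k) hb0.ne' 1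
    rw [h3, mul_one_div_cancel hb0.ne', mul_zero, sub_zero, sub_self, integral_pow, smul_eq_mul]
    simp
    field_simp
  have h3 : 0 ≤ ∫ y in (1 / b)..1, l y ^ k :=
    intervalIntegral.integral_nonneg hb1 fun y hy => pow_nonneg (h01 y ⟨hb2.trans hy.1, hy.2⟩).1 k
  have h4 := intervalIntegral.integral_add_adjacent_intervals
    (i1 (c := 0) (d := 1 / b) ⟨le_rfl, zero_le_one⟩ ⟨hb2, hb1⟩)
    (i1 (c := 1 / b) (d := 1) ⟨hb2, hb1⟩ ⟨zero_le_one, le_rfl⟩)
  have h5 : 1 / (b * (k + 1)) ≤ ∫ y in (0 : ℝ)..1, l y ^ k := by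
    rw [← h4]
    linarith
  have h6 := mul_le_mul_of_nonneg_left h5 (by positivity : (0 : ℝ) ≤ (k : ℝ) + 1)
  refine le_trans (le_of_eq ?_) h6
  field_simp

end Vale.Agent.P146.R3.H952
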