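import Mathlib

/-!
# P146: Helly's selection theorem for `[0,1]`-valued monotone functions
-/

open MeasureTheory Filter Topology Set

namespace Vale.Agent.P146.R3.H952

/-- **Helly's selection theorem.** -/
theorem helly {x : ℕ → ℝ → ℝ} (hm : ∀ j, Monotone (x j)) (h01 : ∀ j u, x j u ∈ Icc (0 : ℝ) 1) :
    ∃ (φ : ℕ → ℕ) (X : ℝ → ℝ), StrictMono φ ∧ Monotone X ∧ (∀ u, X u ∈ Icc (0 : ℝ) 1) ∧
      ∀ᵐ u : ℝ, Tendsto (fun j => x (φ j) u) atTop (𝓝 (X u)) := by
  obtain ⟨y, φ, hφ, hy⟩ := CompactSpace.tendsto_subseq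
    (fun j => (fun r : ℚ => (⟨x j r, h01 j r⟩ : Icc (0 : ℝ) 1)))
  have hyr : ∀ r : ℚ, Tendsto (fun j => x (φ j) r) atTop (𝓝 (y r)) := by
    intro r
    have h1 := (tendsto_pi_nhds.1 hy) r
    exact (continuous_subtype_val.tendsto _).comp h1
  have hym : ∀ r s : ℚ, r ≤ s → (y r : ℝ) ≤ y s := by
    intro r s hrs
    exact le_of_tendsto_of_tendsto' (hyr r) (hyr s) fun j => hm _ (by exact_mod_cast hrs)
  obtain ⟨X, hX⟩ : ∃ X : ℝ → ℝ, ∀ u, X u = sInf {z : ℝ | ∃ r : ℚ, u < r ∧ z = y r} :=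
    ⟨_, fun _ => rfl⟩
  have hne : ∀ u : ℝ, {z : ℝ | ∃ r : ℚ, u < r ∧ z = y r}.Nonempty := by
    intro u
    obtain ⟨r, hr⟩ := exists_rat_gt u
    exact ⟨y r, r, hr, rfl⟩
  have hbd : ∀ u : ℝ, BddBelow {z : ℝ | ∃ r : ℚ, u < r ∧ z = y r} := by
    intro u
    refine ⟨0, ?_⟩
    rintro z ⟨r, -, rfl⟩
    exact (y r).2.1
  have hle : ∀ (u : ℝ) (r : ℚ), u < r → X u ≤ y r := by
    intro u r hr
    rw [hX]
    exact csInf_le (hbd u) ⟨r, hr, rfl⟩
  have hge : ∀ (u : ℝ) (r : ℚ), (r : ℝ) ≤ u → (y r : ℝ) ≤ X u := by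
    intro u r hr
    rw [hX]
    refine le_csInf (hne u) ?_
    rintro z ⟨s, hs, rfl⟩
    exact hym r s (by exact_mod_cast (hr.trans hs.le))
  have hXm : Monotone X := by
    intro u v huv
    rw [hX u, hX v]
    refine csInf_le_csInf (hbd u) (hne v) ?_
    rintro z ⟨r, hr, rfl⟩
    exact ⟨r, huv.trans_lt hr, rfl⟩
  have hX01 : ∀ u, X u ∈ Icc (0 : ℝ) 1 := by
    intro u
    constructor
    · rw [hX]
      refine le_csInf (hne u) ?_
      rintro z ⟨r, -, rfl⟩
      exact (y r).2.1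
    · obtain ⟨r, hr⟩ := exists_rat_gt u
      exact (hle u r hr).trans (y r).2.2
  refine ⟨φ, X, hφ, hXm, hX01, ?_⟩
  have hcount : (volume : Measure ℝ) {u | ¬ContinuousAt X u} = 0 :=
    (hXm.countable_not_continuousAt).measure_zero _
  have hae : ∀ᵐ u : ℝ, ContinuousAt X u := by
    rw [ae_iff]
    exact hcount
  filter_upwards [hae] with u hu
  rw [Metric.tendsto_atTop]
  intro ε hε
  obtain ⟨δ, hδ, hc⟩ := Metric.continuousAt_iff.1 hu (ε / 2) (by linarith)
  obtain ⟨r, hr1, hr2⟩ := exists_rat_btwn (show u - δ / 2 < u by linarith)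
  obtain ⟨s, hs1, hs2⟩ := exists_rat_btwn (show u < u + δ / 2 by linarith)
  have e1 : X u - ε / 2 < y r := by
    have h1 := hc (x := u - δ / 2) (by rw [Real.dist_eq]; rw [abs_lt]; constructor <;> linarith)
    have h2 := hle (u - δ / 2) r hr1
    rw [Real.dist_eq, abs_lt] at h1
    linarith
  have e2 : (y s : ℝ) < X u + ε / 2 := by
    have h1 := hc (x := u + δ / 2) (by rw [Real.dist_eq]; rw [abs_lt]; constructor <;> linarith)
    have h2 := hge (u + δ / 2) s hs2.le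
    rw [Real.dist_eq, abs_lt] at h1
    linarith
  obtain ⟨N₁, hN₁⟩ := (Metric.tendsto_atTop.1 (hyr r)) (ε / 2) (by linarith)
  obtain ⟨N₂, hN₂⟩ := (Metric.tendsto_atTop.1 (hyr s)) (ε / 2) (by linarith)
  refine ⟨max N₁ N₂, fun j hj => ?_⟩
  have g1 := hN₁ j ((le_max_left _ _).trans hj)
  have g2 := hN₂ j ((le_max_right _ _).trans hj)
  have g3 := hm (φ j) hr2.le
  have g4 := hm (φ j) hs1.le
  rw [Real.dist_eq, abs_lt] at g1 g2 ⊢
  constructor <;> linarith

/-- the primitive `∫_y^1 x` -/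
noncomputable def prim (x : ℝ → ℝ) (y : ℝ) : ℝ := ∫ u in y..1, x u

theorem helly_prim {x : ℕ → ℝ → ℝ} (hm : ∀ j, Monotone (x j))
    (h01 : ∀ j u, x j u ∈ Icc (0 : ℝ) 1) :
    ∃ (φ : ℕ → ℕ) (X : ℝ → ℝ), StrictMono φ ∧ Monotone X ∧ (∀ u, X u ∈ Icc (0 : ℝ) 1) ∧
      ∀ ε > 0, ∀ᶠ j in atTop, ∀ y ∈ Icc (0 : ℝ) 1, |prim (x (φ j)) y - prim X y| ≤ ε := by
  obtain ⟨φ, X, hφ, hXm, hX01, hae⟩ := helly hm h01
  refine ⟨φ, X, hφ, hXm, hX01, fun ε hε => ?_⟩
  have hlim : Tendsto (fun j => ∫ u in (0 : ℝ)..1, |x (φ j) u - X u|) atTop (𝓝 0) := by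
    have h1 := intervalIntegral.tendsto_integral_filter_of_dominated_convergence
      (μ := volume) (a := (0 : ℝ)) (b := 1) (l := atTop)
      (F := fun j u => |x (φ j) u - X u|) (f := fun _ => 0) (fun _ => 1)
      (Eventually.of_forall fun j =>
        (((hm _).measurable.sub hXm.measurable).abs).aestronglyMeasurable) ?_
      (by simp) ?_
    · simpa using h1
    · refine Eventually.of_forall fun j => Eventually.of_forall fun u _ => ?_
      have a1 := h01 (φ j) u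
      have a2 := hX01 u
      rw [Real.norm_eq_abs, abs_abs, abs_le]
      constructor <;> linarith [a1.1, a1.2, a2.1, a2.2]
    · filter_upwards [hae] with u hu _
      have h2 := (hu.sub_const (X u)).abs
      simpa using h2
  filter_upwards [(tendsto_order.1 hlim).2 ε hε] with j hj y hy
  have i1 : ∀ a b : ℝ, IntervalIntegrable (x (φ j)) volume a b := fun a b =>
    (hm (φ j)).intervalIntegrable
  have i2 : ∀ a b : ℝ, IntervalIntegrable X volume a b := fun a b => hXm.intervalIntegrable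
  unfold prim
  rw [← intervalIntegral.integral_sub (i1 _ _) (i2 _ _)]
  refine (intervalIntegral.abs_integral_le_integral_abs hy.2).trans ?_
  refine le_trans ?_ hj.le
  refine intervalIntegral.integral_mono_interval hy.1 hy.2 le_rfl ?_ ((i1 0 1).sub (i2 0 1)).abs
  exact Eventually.of_forall fun u => abs_nonneg _

end Vale.Agent.P146.R3.H952
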