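import Mathlib

/-!
# P146: profiles, their compactness, and the envelope lemma
-/

open MeasureTheory Filter Topology Set

namespace Vale.Agent.P146.R3.H952

/-- nonincreasing `1`-Lipschitz functions on `[0,1]` with `0 ≤ L y ≤ 1 - y` -/
structure Prof (L : ℝ → ℝ) : Prop where
  nonneg : ∀ y ∈ Icc (0 : ℝ) 1, 0 ≤ L y
  le : ∀ y ∈ Icc (0 : ℝ) 1, L y ≤ 1 - y
  anti : ∀ x ∈ Icc (0 : ℝ) 1, ∀ y ∈ Icc (0 : ℝ) 1, x ≤ y → L y ≤ L x
  lip : ∀ x ∈ Icc (0 : ℝ) 1, ∀ y ∈ Icc (0 : ℝ) 1, x ≤ y → L x - L y ≤ y - x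

lemma Prof.abs_lip {L : ℝ → ℝ} (h : Prof L) {x y : ℝ} (hx : x ∈ Icc (0 : ℝ) 1)
    (hy : y ∈ Icc (0 : ℝ) 1) : |L x - L y| ≤ |x - y| := by
  rcases le_total x y with hxy | hxy
  · have h1 := h.anti x hx y hy hxy
    have h2 := h.lip x hx y hy hxy
    rw [abs_of_nonneg (by linarith), abs_of_nonpos (by linarith)]
    linarith
  · have h1 := h.anti y hy x hx hxy
    have h2 := h.lip y hy x hx hxy
    rw [abs_of_nonpos (by linarith), abs_of_nonneg (by linarith)]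
    linarith

/-- **Compactness of the set of profiles.** -/
theorem Prof.subseq {L : ℕ → ℝ → ℝ} (h : ∀ j, Prof (L j)) :
    ∃ (M : ℝ → ℝ) (φ : ℕ → ℕ), StrictMono φ ∧ Prof M ∧
      ∀ ε > 0, ∀ᶠ j in atTop, ∀ y ∈ Icc (0 : ℝ) 1, |L (φ j) y - M y| ≤ ε := by
  have hc : ∀ j, Continuous fun x : Icc (0 : ℝ) 1 => L j x := by
    intro j
    refine (LipschitzWith.of_dist_le_mul (K := 1) fun x y => ?_).continuous
    rw [NNReal.coe_one, one_mul, Real.dist_eq, Subtype.dist_eq, Real.dist_eq]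
    exact (h j).abs_lip x.2 y.2
  obtain ⟨F, hF⟩ : ∃ F : ℕ → BoundedContinuousFunction (Icc (0 : ℝ) 1) ℝ,
      ∀ j x, F j x = L j x :=
    ⟨fun j => BoundedContinuousFunction.mkOfCompact ⟨fun x => L j x, hc j⟩, fun _ _ => rfl⟩
  have hcpt : IsCompact (closure (range F)) := by
    refine BoundedContinuousFunction.arzela_ascoli (Icc (0 : ℝ) 1) isCompact_Icc (range F) ?_ ?_
    · rintro f x ⟨j, rfl⟩
      rw [hF]
      exact ⟨(h j).nonneg x x.2, ((h j).le x x.2).trans (by have := x.2.1; linarith)⟩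
    · refine (LipschitzWith.uniformEquicontinuous
        (fun f : range F => ((f : BoundedContinuousFunction (Icc (0 : ℝ) 1) ℝ) :
          Icc (0 : ℝ) 1 → ℝ)) 1 ?_).equicontinuous
      rintro ⟨f, ⟨j, rfl⟩⟩
      refine LipschitzWith.of_dist_le_mul fun x y => ?_
      rw [NNReal.coe_one, one_mul, Real.dist_eq, Subtype.dist_eq, Real.dist_eq]
      simp only [hF]
      exact (h j).abs_lip x.2 y.2
  obtain ⟨G, -, φ, hφ, hlim⟩ := hcpt.tendsto_subseq (fun j => subset_closure (mem_range_self j))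
  obtain ⟨M, hM⟩ : ∃ M : ℝ → ℝ, ∀ x : Icc (0 : ℝ) 1, M x = G x :=
    ⟨fun y => if hy : y ∈ Icc (0 : ℝ) 1 then G ⟨y, hy⟩ else 0, fun x => by
      simp only
      rw [dif_pos x.2]⟩
  have hpt : ∀ y ∈ Icc (0 : ℝ) 1, Tendsto (fun j => L (φ j) y) atTop (𝓝 (M y)) := by
    intro y hy
    have h2 : M y = G ⟨y, hy⟩ := hM ⟨y, hy⟩
    rw [h2, Metric.tendsto_atTop]
    intro ε hε
    obtain ⟨N, hN⟩ := (Metric.tendsto_atTop.1 hlim) ε hε
    refine ⟨N, fun j hj => ?_⟩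
    have h4 := (BoundedContinuousFunction.dist_coe_le_dist (f := F (φ j)) (g := G)
      (⟨y, hy⟩ : Icc (0 : ℝ) 1)).trans_lt (hN j hj)
    rwa [hF] at h4
  refine ⟨M, φ, hφ, ⟨fun y hy => ?_, fun y hy => ?_, fun x hx y hy hxy => ?_,
    fun x hx y hy hxy => ?_⟩, fun ε hε => ?_⟩
  · exact ge_of_tendsto' (hpt y hy) fun j => (h _).nonneg y hy
  · exact le_of_tendsto' (hpt y hy) fun j => (h _).le y hy
  · exact le_of_tendsto_of_tendsto' (hpt y hy) (hpt x hx) fun j => (h _).anti x hx y hy hxy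
  · exact le_of_tendsto' ((hpt x hx).sub (hpt y hy)) fun j => (h _).lip x hx y hy hxy
  · have h3 := (Metric.tendsto_atTop.1 hlim) ε hε
    obtain ⟨N, hN⟩ := h3
    filter_upwards [eventually_ge_atTop N] with j hj y hy
    have h4 := hN j hj
    have h5 := (BoundedContinuousFunction.dist_coe_le_dist (f := F (φ j)) (g := G)
      (⟨y, hy⟩ : Icc (0 : ℝ) 1)).trans h4.le
    rw [Real.dist_eq, hF] at h5
    have h2 : M y = G ⟨y, hy⟩ := hM ⟨y, hy⟩
    rw [h2]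
    exact h5

/-- a midpoint convex function with a one sided linear upper bound is differentiable -/
theorem deriv_of_upper {f : ℝ → ℝ} {D : ℝ} (hmid : ∀ s, 2 * f 0 ≤ f s + f (-s))
    (hup : ∀ ε > 0, ∃ δ > 0, ∀ s, |s| < δ → f s ≤ f 0 + s * D + ε * |s|) :
    HasDerivAt f D 0 := by
  rw [hasDerivAt_iff_isLittleO, Asymptotics.isLittleO_iff]
  intro ε hε
  obtain ⟨δ, hδ, h⟩ := hup ε hε
  rw [Metric.eventually_nhds_iff]
  refine ⟨δ, hδ, fun s hs => ?_⟩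
  rw [Real.dist_eq, sub_zero] at hs
  have h1 := h s hs
  have h2 := h (-s) (by rwa [abs_neg])
  have h3 := hmid s
  rw [abs_neg] at h2
  rw [sub_zero, smul_eq_mul, Real.norm_eq_abs, Real.norm_eq_abs, abs_le]
  constructor <;> linarith

/-- truncated profile -/
noncomputable def tr (β : ℝ) (L : ℝ → ℝ) (y : ℝ) : ℝ := min (β * L y) 1

section tr

variable {β : ℝ} (hβ : 0 < β) {L M : ℝ → ℝ}

include hβ in
lemma tr_nonneg (h : Prof L) {y : ℝ} (hy : y ∈ Icc (0 : ℝ) 1) : 0 ≤ tr β L y :=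
  le_min (mul_nonneg hβ.le (h.nonneg y hy)) zero_le_one

lemma tr_le_one (β : ℝ) (L : ℝ → ℝ) (y : ℝ) : tr β L y ≤ 1 := min_le_right _ _

include hβ in
lemma tr_anti (h : Prof L) {x y : ℝ} (hx : x ∈ Icc (0 : ℝ) 1) (hy : y ∈ Icc (0 : ℝ) 1)
    (hxy : x ≤ y) : tr β L y ≤ tr β L x :=
  min_le_min_right _ (mul_le_mul_of_nonneg_left (h.anti x hx y hy hxy) hβ.le)

include hβ in
lemma tr_lip (h : Prof L) {x y : ℝ} (hx : x ∈ Icc (0 : ℝ) 1) (hy : y ∈ Icc (0 : ℝ) 1) :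
    |tr β L x - tr β L y| ≤ β * |x - y| := by
  unfold tr
  refine (abs_min_sub_min_le_max _ _ _ _).trans ?_
  rw [sub_self, abs_zero, max_eq_left (abs_nonneg _), ← mul_sub, abs_mul, abs_of_pos hβ]
  exact mul_le_mul_of_nonneg_left (h.abs_lip hx hy) hβ.le

include hβ in
lemma tr_dist {y : ℝ} : |tr β L y - tr β M y| ≤ β * |L y - M y| := by
  unfold tr
  refine (abs_min_sub_min_le_max _ _ _ _).trans ?_
  rw [sub_self, abs_zero, max_eq_left (abs_nonneg _), ← mul_sub, abs_mul, abs_of_pos hβ]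

include hβ in
lemma tr_cont (h : Prof L) : ContinuousOn (tr β L) (Icc 0 1) := by
  refine (LipschitzOnWith.of_dist_le_mul (K := ⟨β, hβ.le⟩) fun x hx y hy => ?_).continuousOn
  rw [Real.dist_eq, Real.dist_eq]
  exact tr_lip hβ h hx hy

include hβ in
lemma tr_ii (h : Prof L) (k : ℕ) : IntervalIntegrable (fun y => tr β L y ^ k) volume 0 1 := by
  refine ContinuousOn.intervalIntegrable ?_
  rw [uIcc_of_le zero_le_one]
  exact (tr_cont hβ h).pow k

lemma pow_dist {x y : ℝ} (hx : 0 ≤ x) (hx1 : x ≤ 1) (hy : 0 ≤ y) (hy1 : y ≤ 1) (k : ℕ) :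
    |x ^ k - y ^ k| ≤ k * |x - y| := by
  induction k with
  | zero => simp
  | succ k ih =>
    have e : x ^ (k + 1) - y ^ (k + 1) = x * (x ^ k - y ^ k) + (x - y) * y ^ k := by ring
    rw [e]
    refine (abs_add_le _ _).trans ?_
    rw [abs_mul, abs_mul, abs_of_nonneg hx, abs_of_nonneg (pow_nonneg hy k)]
    have h1 : x * |x ^ k - y ^ k| ≤ 1 * (k * |x - y|) :=
      mul_le_mul hx1 ih (abs_nonneg _) zero_le_one
    have h2 : |x - y| * y ^ k ≤ |x - y| * 1 :=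
      mul_le_mul_of_nonneg_left (pow_le_one₀ hy hy1) (abs_nonneg _)
    push_cast
    linarith

include hβ in
/-- the integrals `∫ l^k` depend continuously on the profile -/
lemma int_tr_le (hL : Prof L) (hM : Prof M) (k : ℕ) {e : ℝ}
    (h : ∀ y ∈ Icc (0 : ℝ) 1, |L y - M y| ≤ e) :
    |(∫ y in (0 : ℝ)..1, tr β L y ^ k) - ∫ y in (0 : ℝ)..1, tr β M y ^ k| ≤ k * (β * e) := by
  rw [← intervalIntegral.integral_sub (tr_ii hβ hL k) (tr_ii hβ hM k)]
  have h1 := intervalIntegral.norm_integral_le_of_norm_le_const (a := (0 : ℝ)) (b := 1)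
    (f := fun y => tr β L y ^ k - tr β M y ^ k) (C := k * (β * e)) (fun y hy => ?_)
  · rw [Real.norm_eq_abs] at h1
    simpa using h1
  · rw [uIoc_of_le zero_le_one] at hy
    have hy' : y ∈ Icc (0 : ℝ) 1 := ⟨hy.1.le, hy.2⟩
    rw [Real.norm_eq_abs]
    refine (pow_dist (tr_nonneg hβ hL hy') (tr_le_one _ _ _) (tr_nonneg hβ hM hy')
      (tr_le_one _ _ _) k).trans ?_
    refine mul_le_mul_of_nonneg_left ?_ (Nat.cast_nonneg k)
    exact (tr_dist hβ).trans (mul_le_mul_of_nonneg_left (h y hy') hβ.le)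

end tr

end Vale.Agent.P146.R3.H952
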