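import Vale.Agent.P146.R3.Def
import Vale.Agent.P146.R3.H952.Prof
import Vale.Agent.P146.R3.H952.Helly

/-!
# P146: the envelope theorem for the variational formula of P166
-/

open MeasureTheory Filter Topology Set

namespace Vale.Agent.P146.R3.H952

open Vale.Agent Vale.Agent.P146.R3 Vale.Agent.P157.Par

/-! ### profiles of monotone functions -/

lemma prim_diff {x : ℝ → ℝ} (hm : Monotone x) (y z : ℝ) :
    prim x y - prim x z = ∫ u in y..z, x u := by
  unfold prim
  have i : ∀ a b : ℝ, IntervalIntegrable x volume a b := fun a b => hm.intervalIntegrable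
  have h := intervalIntegral.integral_add_adjacent_intervals (i y z) (i z 1)
  linarith

theorem prof_prim {x : ℝ → ℝ} (hm : Monotone x) (h01 : ∀ u, x u ∈ Icc (0 : ℝ) 1) :
    Prof (prim x) := by
  have i : ∀ a b : ℝ, IntervalIntegrable x volume a b := fun a b => hm.intervalIntegrable
  have hup : ∀ a b : ℝ, a ≤ b → ∫ u in a..b, x u ≤ b - a := by
    intro a b hab
    have h := intervalIntegral.integral_mono_on (g := fun _ => (1 : ℝ)) hab (i a b) (by simp)
      fun u _ => (h01 u).2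
    simpa using h
  have hlo : ∀ a b : ℝ, a ≤ b → 0 ≤ ∫ u in a..b, x u := fun a b hab =>
    intervalIntegral.integral_nonneg hab fun u _ => (h01 u).1
  refine ⟨fun y hy => hlo y 1 hy.2, fun y hy => hup y 1 hy.2, fun y _ z _ hyz => ?_,
    fun y _ z _ hyz => ?_⟩
  · have := prim_diff hm y z
    linarith [hlo y z hyz]
  · rw [prim_diff hm y z]
    exact hup y z hyz

/-- the distribution function of the path `q` -/
noncomputable def xs (k : ℕ) (m q : ℕ → ℝ) (u : ℝ) : ℝ :=
  ∑ l ∈ Finset.range (k + 1), (m (l + 1) - m l) * if q l < u then 1 else 0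

/-- the argument of the R-transform -/
noncomputable def lam (k : ℕ) (m q : ℕ → ℝ) (s : ℝ) : ℝ :=
  1 - s - ∑ l ∈ Finset.range (k + 1), (m (l + 1) - m l) * max (q l - s) 0

section path

variable {k : ℕ} {m q : ℕ → ℝ}

lemma wt_nonneg (hm : Exponents k m) {l : ℕ} (hl : l ∈ Finset.range (k + 1)) :
    0 ≤ m (l + 1) - m l :=
  sub_nonneg.2 (hm.2.2 l (Nat.lt_succ_iff.1 (Finset.mem_range.1 hl))).le

lemma wt_sum (hm : Exponents k m) : ∑ l ∈ Finset.range (k + 1), (m (l + 1) - m l) = 1 := by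
  rw [Finset.sum_range_sub, hm.2.1, hm.1, sub_zero]

lemma path_le (hq : Path k q) {l : ℕ} (hl : l ∈ Finset.range (k + 1)) : q l ≤ q k := by
  have hl' := Nat.lt_succ_iff.1 (Finset.mem_range.1 hl)
  have : ∀ j, l ≤ j → j ≤ k → q l ≤ q j := by
    intro j hj
    induction j, hj using Nat.le_induction with
    | base => intro _; exact le_rfl
    | succ j _ ih => intro hj; exact (ih (by omega)).trans (hq.2 j (by omega))
  exact this k hl' le_rfl

lemma xs_mono (hm : Exponents k m) : Monotone (xs k m q) := by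
  intro u v huv
  refine Finset.sum_le_sum fun l hl => mul_le_mul_of_nonneg_left ?_ (wt_nonneg hm hl)
  by_cases h : q l < u
  · rw [if_pos h, if_pos (h.trans_le huv)]
  · rw [if_neg h]
    split_ifs <;> norm_num

lemma xs_mem (hm : Exponents k m) (u : ℝ) : xs k m q u ∈ Icc (0 : ℝ) 1 := by
  constructor
  · refine Finset.sum_nonneg fun l hl => mul_nonneg (wt_nonneg hm hl) ?_
    split_ifs <;> norm_num
  · rw [← wt_sum hm]
    refine Finset.sum_le_sum fun l hl => mul_le_of_le_one_right (wt_nonneg hm hl) ?_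
    split_ifs <;> norm_num

lemma int_ind {a y : ℝ} (ha : a ≤ 1) (hy : y ≤ 1) :
    ∫ u in y..1, (if a < u then (1 : ℝ) else 0) = 1 - y - max (a - y) 0 := by
  have hmono : Monotone fun u : ℝ => if a < u then (1 : ℝ) else 0 := by
    intro u v huv
    by_cases h : a < u
    · simp only [if_pos h, if_pos (h.trans_le huv), le_refl]
    · simp only [if_neg h]
      split_ifs <;> norm_num
  have i : ∀ b c : ℝ, IntervalIntegrable (fun u : ℝ => if a < u then (1 : ℝ) else 0)
      volume b c := fun b c => hmono.intervalIntegrable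
  have h1 : ∀ b : ℝ, a ≤ b → b ≤ 1 → ∫ u in b..1, (if a < u then (1 : ℝ) else 0) = 1 - b := by
    intro b hb hb1
    have e : ∫ u in b..1, (if a < u then (1 : ℝ) else 0) = ∫ _u in b..1, (1 : ℝ) := by
      refine intervalIntegral.integral_congr_ae (Eventually.of_forall fun u hu => ?_)
      rw [uIoc_of_le hb1] at hu
      rw [if_pos (hb.trans_lt hu.1)]
    rw [e]
    simp
  rcases le_total a y with h | h
  · rw [h1 y h hy, max_eq_right (by linarith), sub_zero]
  · rw [← intervalIntegral.integral_add_adjacent_intervals (i y a) (i a 1), h1 a le_rfl ha,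
      max_eq_left (by linarith)]
    have e : ∫ u in y..a, (if a < u then (1 : ℝ) else 0) = ∫ _u in y..a, (0 : ℝ) := by
      refine intervalIntegral.integral_congr_ae (Eventually.of_forall fun u hu => ?_)
      rw [uIoc_of_le h] at hu
      rw [if_neg (not_lt.2 hu.2)]
    rw [e]
    simp

lemma prim_xs (hm : Exponents k m) (hq : Path k q) (hq1 : q k ≤ 1) {y : ℝ} (hy : y ≤ 1) :
    prim (xs k m q) y = lam k m q y := by
  unfold prim xs lam
  rw [intervalIntegral.integral_finsetSum]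
  · simp_rw [intervalIntegral.integral_const_mul]
    rw [Finset.sum_congr rfl fun l hl => by
      rw [int_ind ((path_le hq hl).trans hq1) hy]]
    simp_rw [mul_sub]
    rw [Finset.sum_sub_distrib, Finset.sum_sub_distrib, ← Finset.sum_mul, ← Finset.sum_mul,
      wt_sum hm]
    ring
  · intro l _
    refine IntervalIntegrable.const_mul ?_ _
    have hmono : Monotone fun u : ℝ => if q l < u then (1 : ℝ) else 0 := by
      intro u v huv
      by_cases h : q l < u
      · simp only [if_pos h, if_pos (h.trans_le huv), le_refl]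
      · simp only [if_neg h]
        split_ifs <;> norm_num
    exact hmono.intervalIntegrable

lemma prof_lam (hm : Exponents k m) (hq : Path k q) (hq1 : q k ≤ 1) : Prof (lam k m q) := by
  have h := prof_prim (xs_mono (q := q) hm) (xs_mem hm)
  have e : ∀ y ∈ Icc (0 : ℝ) 1, prim (xs k m q) y = lam k m q y := fun y hy =>
    prim_xs hm hq hq1 hy.2
  exact ⟨fun y hy => by rw [← e y hy]; exact h.nonneg y hy,
    fun y hy => by rw [← e y hy]; exact h.le y hy,
    fun y hy z hz hyz => by rw [← e y hy, ← e z hz]; exact h.anti y hy z hz hyz,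
    fun y hy z hz hyz => by rw [← e y hy, ← e z hz]; exact h.lip y hy z hz hyz⟩

lemma lam_pos (hm : Exponents k m) (hq : Path k q) (hq1 : q k < 1) {s : ℝ} (hs : s < 1) :
    0 < lam k m q s := by
  unfold lam
  have h : ∑ l ∈ Finset.range (k + 1), (m (l + 1) - m l) * max (q l - s) 0 ≤
      ∑ l ∈ Finset.range (k + 1), (m (l + 1) - m l) * max (q k - s) 0 :=
    Finset.sum_le_sum fun l hl => mul_le_mul_of_nonneg_left
      (max_le_max_right _ (by linarith [path_le hq hl])) (wt_nonneg hm hl)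
  rw [← Finset.sum_mul, wt_sum hm, one_mul] at h
  rcases le_total (q k - s) 0 with h1 | h1
  · rw [max_eq_right h1] at h
    linarith
  · rw [max_eq_left h1] at h
    linarith

end path

/-! ### the derivative along near minimisers -/

section env

variable {b : ℝ}

/-- `l(y) = min (b ∫_y^1 x, 1)` -/
noncomputable def ll (b : ℝ) (x : ℝ → ℝ) (y : ℝ) : ℝ := min (b * ∫ u in y..1, x u) 1

lemma muS_zero (b : ℝ) (k : ℕ) : muS b k 0 = muS b 0 0 := by
  unfold muS
  congr 1
  funext x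
  simp [hs]

/-- hypothesis on the R-transform (helper49's `n5a`) -/
def HypR (b : ℝ) : Prop := ∀ k : ℕ, ∀ e > 0, ∃ s₀ > 0, ∀ s : ℝ, |s| ≤ s₀ → ∀ y : ℝ, 0 < y →
  |P166.stInv (muS b k s) y - P166.stInv (muS b k 0) y -
    2 * (k + 1) * min (b * y) 1 ^ k * s| ≤ e * |s|

/-- integrability of the R-transform along a profile -/
def HypI (b : ℝ) : Prop := ∀ (k : ℕ) (s : ℝ) (K : ℕ) (m q : ℕ → ℝ), Exponents K m → Path K q →
  q 0 = 0 → q K < 1 → IntervalIntegrable (fun u => P166.Rt (muS b k s) (lam K m q u)) volume 0 1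

/-- the increment of the spectral part -/
lemma spec_le (hb : 0 < b) (hI : HypI b) {K : ℕ} {m q : ℕ → ℝ}
    (hm : Exponents K m) (hq : Path K q) (hq0 : q 0 = 0) (hq1 : q K < 1) (k : ℕ) {e s : ℝ}
    (h : ∀ y : ℝ, 0 < y → |P166.stInv (muS b k s) y - P166.stInv (muS b k 0) y -
      2 * (k + 1) * min (b * y) 1 ^ k * s| ≤ e * |s|) :
    P166.specPart 1 (muS b k s) K m q - P166.specPart 1 (muS b k 0) K m q ≤
      s * ((k + 1) * ∫ y in (0 : ℝ)..1, tr b (lam K m q) y ^ k) + e / 2 * |s| := by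
  have hp := prof_lam hm hq hq1.le
  have hpos : ∀ u : ℝ, 0 ≤ u → u < 1 → 0 < lam K m q u := fun u _ hu => lam_pos hm hq hq1 hu
  have i1 := hI k s K m q hm hq hq0 hq1
  have i2 := hI k 0 K m q hm hq hq0 hq1
  have e1 : ∀ s' : ℝ, P166.specPart 1 (muS b k s') K m q =
      1 / 2 * ∫ u in (0 : ℝ)..1, P166.Rt (muS b k s') (lam K m q u) := by
    intro s'
    unfold P166.specPart lam
    simp only [one_mul]
  rw [e1, e1, ← mul_sub, ← intervalIntegral.integral_sub i1 i2]
  have i3 := tr_ii hb hp k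
  have h2 : ∫ u in (0 : ℝ)..1, (P166.Rt (muS b k s) (lam K m q u) -
      P166.Rt (muS b k 0) (lam K m q u)) ≤
      ∫ u in (0 : ℝ)..1, ((2 * (k + 1) * s) * tr b (lam K m q) u ^ k + e * |s|) := by
    refine intervalIntegral.integral_mono_on_of_le_Ioo zero_le_one (i1.sub i2)
      ((i3.const_mul _).add intervalIntegrable_const) fun u hu => ?_
    have h3 := (abs_le.1 (h _ (hpos u hu.1.le hu.2))).2
    unfold P166.Rt tr
    linarith
  rw [intervalIntegral.integral_add (i3.const_mul _) intervalIntegrable_const,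
    intervalIntegral.integral_const_mul] at h2
  simp only [intervalIntegral.integral_const, sub_zero, smul_eq_mul, one_mul] at h2
  linarith

/-- the value of the variational problem along a path -/
def IsVal (b : ℝ) (μ : Measure ℝ) (K : ℕ) (m q : ℕ → ℝ) (v : ℝ) : Prop :=
  Exponents K m ∧ Path K q ∧ q 0 = 0 ∧ q K < 1 ∧
    IsLUB {x : ℝ | ∃ r : ℕ → ℝ, Path K r ∧ x = P166.Jf b μ K m q r} v

lemma IsVal.shift {μ μ' : Measure ℝ} {K : ℕ} {m q : ℕ → ℝ} {v : ℝ} (h : IsVal 1 μ K m q v) :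
    IsVal 1 μ' K m q (v + (P166.specPart 1 μ' K m q - P166.specPart 1 μ K m q)) := by
  obtain ⟨h1, h2, h3, h4, h5⟩ := h
  refine ⟨h1, h2, h3, h4, ?_, ?_⟩
  · rintro x ⟨r, hr, rfl⟩
    have h6 := h5.1 ⟨r, hr, rfl⟩
    unfold P166.Jf at h6 ⊢
    linarith
  · intro y hy
    have h6 : v ≤ y - (P166.specPart 1 μ' K m q - P166.specPart 1 μ K m q) := by
      refine h5.2 ?_
      rintro x ⟨r, hr, rfl⟩
      have h7 := hy ⟨r, hr, rfl⟩
      unfold P166.Jf at h7 ⊢
      linarith
    linarith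

/-- `x` is a limit of distribution functions of near minimisers at `s = 0` -/
def MinProf (b : ℝ) (x : ℝ → ℝ) : Prop :=
  Monotone x ∧ (∀ u, x u ∈ Icc (0 : ℝ) 1) ∧ ∀ ε > 0, ∃ (K : ℕ) (m q : ℕ → ℝ) (v : ℝ),
    IsVal 1 (muS b 0 0) K m q v ∧ (∀ w ∈ PV 1 (muS b 0 0), v ≤ w + ε) ∧
      ∀ y ∈ Icc (0 : ℝ) 1, |(∫ u in y..1, xs K m q u) - ∫ u in y..1, x u| ≤ ε

theorem exists_minProf {p : ℝ} (hglb : IsGLB (PV 1 (muS b 0 0)) p) : ∃ x, MinProf b x := by
  have h1 : ∀ j : ℕ, ∃ (K : ℕ) (m q : ℕ → ℝ) (v : ℝ), IsVal 1 (muS b 0 0) K m q v ∧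
      v < p + 1 / ((j : ℝ) + 1) := by
    intro j
    have hpos : 0 < 1 / ((j : ℝ) + 1) := by positivity
    obtain ⟨v, ⟨K, m, q, hm, hq, hq0, hq1, hlub⟩, -, hv⟩ :=
      hglb.exists_between (lt_add_of_pos_right p hpos)
    exact ⟨K, m, q, v, ⟨hm, hq, hq0, hq1, hlub⟩, hv⟩
  choose K m q v hval hv using h1
  obtain ⟨φ, X, hφ, hX, hX01, hlim⟩ := helly_prim (x := fun j => xs (K j) (m j) (q j))
    (fun j => xs_mono (hval j).1) (fun j u => xs_mem (hval j).1 u)
  refine ⟨X, hX, hX01, fun ε hε => ?_⟩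
  have h2 : ∀ᶠ j : ℕ in atTop, 1 / ((φ j : ℝ) + 1) < ε := by
    have h3 : Tendsto (fun j : ℕ => 1 / ((φ j : ℝ) + 1)) atTop (𝓝 0) :=
      tendsto_one_div_add_atTop_nhds_zero_nat.comp hφ.tendsto_atTop
    exact (tendsto_order.1 h3).2 ε hε
  obtain ⟨j, hj1, hj2⟩ := (h2.and (hlim ε hε)).exists
  refine ⟨K (φ j), m (φ j), q (φ j), v (φ j), hval _, fun w hw => ?_, hj2⟩
  have h4 := hglb.1 hw
  have h5 := hv (φ j)
  linarith

/-- **The envelope theorem.** -/
theorem deriv_of_minProf (hb : 0 < b) (hR : HypR b) (hI : HypI b) {x : ℝ → ℝ}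
    (hx : MinProf b x) (k : ℕ) {f : ℝ → ℝ} (hconv : ConvexOn ℝ univ f)
    (hglb : ∀ s, IsGLB (PV 1 (muS b k s)) (f s)) :
    HasDerivAt f ((k + 1) * ∫ y in (0 : ℝ)..1, ll b x y ^ k) 0 := by
  obtain ⟨hxm, hx01, hmin⟩ := hx
  refine deriv_of_upper (fun s => ?_) fun e he => ?_
  · have h := hconv.2 (mem_univ s) (mem_univ (-s)) (by norm_num : (0 : ℝ) ≤ 1 / 2)
      (by norm_num : (0 : ℝ) ≤ 1 / 2) (by norm_num)
    simp only [smul_eq_mul] at h
    have e0 : 1 / 2 * s + 1 / 2 * (-s) = 0 := by ring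
    rw [e0] at h
    linarith
  · obtain ⟨s₀, hs₀, hs⟩ := hR k e he
    refine ⟨s₀, hs₀, fun s hs1 => ?_⟩
    refine le_of_forall_pos_le_add fun η hη => ?_
    -- choose a near minimiser
    obtain ⟨c, hc⟩ : ∃ c : ℝ, c = 1 + |s| * ((k + 1) * (k * b)) := ⟨_, rfl⟩
    have hc0 : 0 < c := by rw [hc]; positivity
    obtain ⟨K, m, q, v, hval, hv, hclose⟩ := hmin (η / c) (by positivity)
    obtain ⟨hm, hq, hq0, hq1, hlub⟩ := id hval
    have hpL := prof_lam hm hq hq1.le
    have hpX := prof_prim hxm hx01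
    have h1 := spec_le hb hI hm hq hq0 hq1 k (hs s hs1.le)
    have h2 : v ≤ f 0 + η / c := by
      have h3 : v - η / c ≤ f 0 := by
        refine (hglb 0).2 fun w hw => ?_
        rw [muS_zero] at hw
        have := hv w hw
        linarith
      linarith
    have h4 : f s ≤ v + (P166.specPart 1 (muS b k s) K m q -
        P166.specPart 1 (muS b k 0) K m q) := by
      refine (hglb s).1 ?_
      rw [muS_zero b k]
      obtain ⟨g1, g2, g3, g4, g5⟩ := hval.shift (μ' := muS b k s)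
      exact ⟨K, m, q, g1, g2, g3, g4, g5⟩
    have h5 := int_tr_le hb hpL hpX k (e := η / c) fun y hy => by
      rw [← prim_xs hm hq hq1.le hy.2]
      exact hclose y hy
    have e2 : ∫ y in (0 : ℝ)..1, tr b (prim x) y ^ k = ∫ y in (0 : ℝ)..1, ll b x y ^ k := rfl
    rw [e2] at h5
    obtain ⟨A, hA⟩ : ∃ A, A = ∫ y in (0 : ℝ)..1, tr b (lam K m q) y ^ k := ⟨_, rfl⟩
    obtain ⟨B, hB⟩ : ∃ B, B = ∫ y in (0 : ℝ)..1, ll b x y ^ k := ⟨_, rfl⟩
    rw [← hA, ← hB] at h5
    rw [← hA] at h1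
    rw [← hB]
    have h6 : s * ((k + 1) * A) ≤ s * ((k + 1) * B) + |s| * ((k + 1) * (k * b)) * (η / c) := by
      have h7 : s * ((k + 1) * (A - B)) ≤ |s| * ((k + 1) * (k * (b * (η / c)))) := by
        refine (le_abs_self _).trans ?_
        rw [abs_mul, abs_mul, abs_of_nonneg (by positivity : (0 : ℝ) ≤ (k : ℝ) + 1)]
        exact mul_le_mul_of_nonneg_left (mul_le_mul_of_nonneg_left h5 (by positivity))
          (abs_nonneg _)
      have e3 : |s| * ((k + 1) * (k * (b * (η / c)))) =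
          |s| * ((k + 1) * (k * b)) * (η / c) := by ring
      have e4 : s * ((k + 1) * (A - B)) = s * ((k + 1) * A) - s * ((k + 1) * B) := by ring
      rw [e3, e4] at h7
      linarith
    have h8 : η / c + |s| * ((k + 1) * (k * b)) * (η / c) = η := by
      have : η / c + |s| * ((k + 1) * (k * b)) * (η / c) = c * (η / c) := by
        rw [hc]; ring
      rw [this]
      field_simp
    have h9 : 0 ≤ e / 2 * |s| := by positivity
    linarith

end env

end Vale.Agent.P146.R3.H952
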