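import Vale.Agent.P146.R3.H597.Exact

/-!
# P146: every near minimiser of the variational formula has a profile close to the limit profile
-/

open MeasureTheory ProbabilityTheory Filter Topology Set

namespace Vale.Agent.P146.R3.H952

open Vale.Agent.P146 Vale.Agent.P146.R3

/-- `near_min` without hypotheses -/
theorem prof_near {b : ℝ} (hb : 0 < b) {x : ℝ → ℝ} (hx : MinProf b x) {ε : ℝ} (hε : 0 < ε) :
    ∃ δ > 0, ∀ (K : ℕ) (m q : ℕ → ℝ) (v : ℝ),
      IsVal 1 (muS b 0 0) K m q v → (∀ w ∈ PV 1 (muS b 0 0), v ≤ w + δ) →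
        ∀ y ∈ Icc (0 : ℝ) 1, |ll b (xs K m q) y - ll b x y| ≤ ε :=
  near_min hb (hypR hb) (hypI b) (hypF b) hx hε

end Vale.Agent.P146.R3.H952
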