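import Vale.Agent.P146.R3.H952.Env

/-!
# P146: the limit profile of the SK formula is unique
-/

open MeasureTheory Filter Topology Set

namespace Vale.Agent.P146.R3.H952

open Vale.Agent Vale.Agent.P146.R3 Vale.Agent.P157.Par

/-! ### properties of `ll` -/

section ll

variable {b : ℝ} (hb : 0 < b) {x : ℝ → ℝ} (hm : Monotone x) (h01 : ∀ u, x u ∈ Icc (0 : ℝ) 1)

include hb hm h01 in
lemma ll_nonneg {y : ℝ} (hy : y ∈ Icc (0 : ℝ) 1) : 0 ≤ ll b x y :=
  tr_nonneg hb (prof_prim hm h01) hy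

lemma ll_le_one (b : ℝ) (x : ℝ → ℝ) (y : ℝ) : ll b x y ≤ 1 := min_le_right _ _

include hb hm h01 in
lemma ll_anti : AntitoneOn (ll b x) (Icc 0 1) := fun _ hy _ hz hyz =>
  tr_anti hb (prof_prim hm h01) hy hz hyz

include hb hm h01 in
lemma ll_lip {y z : ℝ} (hy : y ∈ Icc (0 : ℝ) 1) (hz : z ∈ Icc (0 : ℝ) 1) :
    |ll b x y - ll b x z| ≤ b * |y - z| :=
  tr_lip hb (prof_prim hm h01) hy hz

include hb hm h01 in
lemma ll_cont : ContinuousOn (ll b x) (Icc 0 1) := tr_cont hb (prof_prim hm h01)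

lemma ll_one (b : ℝ) (x : ℝ → ℝ) : ll b x 1 = 0 := by
  unfold ll
  simp

end ll

/-! ### moments determine a continuous nonincreasing function -/

theorem eq_of_moments {g h : ℝ → ℝ} (hg : ContinuousOn g (Icc 0 1)) (hh : ContinuousOn h (Icc 0 1))
    (ga : AntitoneOn g (Icc 0 1)) (ha : AntitoneOn h (Icc 0 1))
    (g01 : ∀ y ∈ Icc (0 : ℝ) 1, g y ∈ Icc (0 : ℝ) 1)
    (h01 : ∀ y ∈ Icc (0 : ℝ) 1, h y ∈ Icc (0 : ℝ) 1)
    (hmom : ∀ k : ℕ, ∫ y in (0 : ℝ)..1, g y ^ k = ∫ y in (0 : ℝ)..1, h y ^ k) :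
    ∀ y ∈ Icc (0 : ℝ) 1, g y ≤ h y := by
  have hu : uIcc (0 : ℝ) 1 = Icc 0 1 := uIcc_of_le zero_le_one
  have ci : ∀ {F : ℝ → ℝ}, ContinuousOn F (Icc 0 1) → IntervalIntegrable F volume 0 1 := by
    intro F hF
    refine ContinuousOn.intervalIntegrable ?_
    rwa [hu]
  have cc : ∀ (ψ : ℝ → ℝ) {F : ℝ → ℝ}, Continuous ψ → ContinuousOn F (Icc 0 1) →
      IntervalIntegrable (fun y => ψ (F y)) volume 0 1 := fun ψ _ hψ hF =>
    ci (hψ.comp_continuousOn hF)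
  -- polynomials
  have hpoly : ∀ P : Polynomial ℝ, ∫ y in (0 : ℝ)..1, P.eval (g y) =
      ∫ y in (0 : ℝ)..1, P.eval (h y) := by
    intro P
    simp_rw [Polynomial.eval_eq_sum_range]
    rw [intervalIntegral.integral_finsetSum, intervalIntegral.integral_finsetSum]
    · refine Finset.sum_congr rfl fun i _ => ?_
      rw [intervalIntegral.integral_const_mul, intervalIntegral.integral_const_mul, hmom]
    · exact fun i _ => (ci (hh.pow i)).const_mul _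
    · exact fun i _ => (ci (hg.pow i)).const_mul _
  -- continuous functions
  have hcont : ∀ φ : ℝ → ℝ, Continuous φ → ∫ y in (0 : ℝ)..1, φ (g y) =
      ∫ y in (0 : ℝ)..1, φ (h y) := by
    intro φ hφ
    have key : ∀ ε > 0, |(∫ y in (0 : ℝ)..1, φ (g y)) - ∫ y in (0 : ℝ)..1, φ (h y)| ≤ 2 * ε := by
      intro ε hε
      obtain ⟨P, hP⟩ := exists_polynomial_near_of_continuousOn 0 1 φ hφ.continuousOn ε hε
      have est : ∀ {F : ℝ → ℝ}, ContinuousOn F (Icc 0 1) →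
          (∀ y ∈ Icc (0 : ℝ) 1, F y ∈ Icc (0 : ℝ) 1) →
          |(∫ y in (0 : ℝ)..1, φ (F y)) - ∫ y in (0 : ℝ)..1, P.eval (F y)| ≤ ε := by
        intro F hF hF1
        rw [← intervalIntegral.integral_sub (cc φ hφ hF) (cc (fun t => P.eval t) P.continuous hF)]
        have h1 := intervalIntegral.norm_integral_le_of_norm_le_const (a := (0 : ℝ)) (b := 1)
          (f := fun y => φ (F y) - P.eval (F y)) (C := ε) (fun y hy => ?_)
        · rw [Real.norm_eq_abs] at h1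
          simpa using h1
        · rw [uIoc_of_le zero_le_one] at hy
          rw [Real.norm_eq_abs, abs_sub_comm]
          exact (hP _ (hF1 y ⟨hy.1.le, hy.2⟩)).le
      have e1 := abs_le.1 (est hg g01)
      have e2 := abs_le.1 (est hh h01)
      rw [hpoly P] at e1
      rw [abs_le]
      constructor <;> linarith [e1.1, e1.2, e2.1, e2.2]
    have h0 : |(∫ y in (0 : ℝ)..1, φ (g y)) - ∫ y in (0 : ℝ)..1, φ (h y)| ≤ 0 := by
      refine le_of_forall_pos_le_add fun ε hε => ?_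
      have := key (ε / 2) (by linarith)
      linarith
    exact sub_eq_zero.1 (abs_nonpos_iff.1 h0)
  intro y₀ hy₀
  by_contra hlt
  push Not at hlt
  have hd : 0 < g y₀ - h y₀ := sub_pos.2 hlt
  obtain ⟨φ, hφ⟩ : ∃ φ : ℝ → ℝ, ∀ t, φ t = max 0 (min 1 ((t - h y₀) / (g y₀ - h y₀))) :=
    ⟨_, fun _ => rfl⟩
  have hφc : Continuous φ := by
    have : φ = fun t => max 0 (min 1 ((t - h y₀) / (g y₀ - h y₀))) := funext hφ
    rw [this]
    fun_prop
  have hφ0 : ∀ t, 0 ≤ φ t := fun t => by rw [hφ]; exact le_max_left _ _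
  have hφ1 : ∀ t, φ t ≤ 1 := fun t => by
    rw [hφ]; exact max_le zero_le_one (min_le_left _ _)
  have hφg : ∀ t, g y₀ ≤ t → φ t = 1 := by
    intro t ht
    have h1 : 1 ≤ (t - h y₀) / (g y₀ - h y₀) := by
      rw [one_le_div hd]
      linarith
    rw [hφ, min_eq_left h1, max_eq_right zero_le_one]
  have hφh : ∀ t, t ≤ h y₀ → φ t = 0 := by
    intro t ht
    have h1 : (t - h y₀) / (g y₀ - h y₀) ≤ 0 :=
      div_nonpos_of_nonpos_of_nonneg (by linarith) hd.le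
    rw [hφ]
    exact max_eq_left ((min_le_right _ _).trans h1)
  have hc1 : ContinuousOn (fun y => φ (g y) - φ (h y)) (Icc 0 1) :=
    (hφc.comp_continuousOn hg).sub (hφc.comp_continuousOn hh)
  have hpos := intervalIntegral.integral_pos (f := fun y => φ (g y) - φ (h y)) zero_lt_one hc1
    (fun y hy => ?_) ⟨y₀, hy₀, ?_⟩
  · rw [intervalIntegral.integral_sub (cc φ hφc hg) (cc φ hφc hh), hcont φ hφc,
      sub_self] at hpos
    exact lt_irrefl _ hpos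
  · have hy' : y ∈ Icc (0 : ℝ) 1 := ⟨hy.1.le, hy.2⟩
    rcases le_total y y₀ with h1 | h1
    · rw [hφg _ (ga hy' hy₀ h1)]
      linarith [hφ1 (h y)]
    · rw [hφh _ (ha hy₀ hy' h1)]
      linarith [hφ0 (g y)]
  · rw [hφg _ le_rfl, hφh _ le_rfl]
    norm_num

/-! ### uniqueness of the profile -/

section uniq

variable {b : ℝ}

/-- the functions `f_k` (limits of the free energies with the perturbation `s σ·U_k(W)σ`) -/
def HypF (b : ℝ) : Prop := ∀ k : ℕ, ∃ f : ℝ → ℝ, ConvexOn ℝ univ f ∧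
  ∀ s, IsGLB (PV 1 (muS b k s)) (f s)

theorem ll_unique (hb : 0 < b) (hR : HypR b) (hI : HypI b) (hF : HypF b) {x x' : ℝ → ℝ}
    (hx : MinProf b x) (hx' : MinProf b x') : ∀ y ∈ Icc (0 : ℝ) 1, ll b x y = ll b x' y := by
  have hmom : ∀ k : ℕ, ∫ y in (0 : ℝ)..1, ll b x y ^ k = ∫ y in (0 : ℝ)..1, ll b x' y ^ k := by
    intro k
    obtain ⟨f, hconv, hglb⟩ := hF k
    have h1 := (deriv_of_minProf hb hR hI hx k hconv hglb).unique
      (deriv_of_minProf hb hR hI hx' k hconv hglb)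
    exact mul_left_cancel₀ (by positivity) h1
  intro y hy
  have c1 := ll_cont hb hx.1 hx.2.1
  have c2 := ll_cont hb hx'.1 hx'.2.1
  have a1 := ll_anti hb hx.1 hx.2.1
  have a2 := ll_anti hb hx'.1 hx'.2.1
  have m1 : ∀ y ∈ Icc (0 : ℝ) 1, ll b x y ∈ Icc (0 : ℝ) 1 := fun y hy =>
    ⟨ll_nonneg hb hx.1 hx.2.1 hy, ll_le_one _ _ _⟩
  have m2 : ∀ y ∈ Icc (0 : ℝ) 1, ll b x' y ∈ Icc (0 : ℝ) 1 := fun y hy =>
    ⟨ll_nonneg hb hx'.1 hx'.2.1 hy, ll_le_one _ _ _⟩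
  exact le_antisymm (eq_of_moments c1 c2 a1 a2 m1 m2 hmom y hy)
    (eq_of_moments c2 c1 a2 a1 m2 m1 (fun k => (hmom k).symm) y hy)

/-- **Every near minimiser of the SK formula has a profile close to the limit profile.** -/
theorem near_min (hb : 0 < b) (hR : HypR b) (hI : HypI b) (hF : HypF b) {x : ℝ → ℝ}
    (hx : MinProf b x) {ε : ℝ} (hε : 0 < ε) : ∃ δ > 0, ∀ (K : ℕ) (m q : ℕ → ℝ) (v : ℝ),
      IsVal 1 (muS b 0 0) K m q v → (∀ w ∈ PV 1 (muS b 0 0), v ≤ w + δ) →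
        ∀ y ∈ Icc (0 : ℝ) 1, |ll b (xs K m q) y - ll b x y| ≤ ε := by
  by_contra hcon
  push Not at hcon
  have h1 : ∀ j : ℕ, ∃ (K : ℕ) (m q : ℕ → ℝ) (v : ℝ), IsVal 1 (muS b 0 0) K m q v ∧
      (∀ w ∈ PV 1 (muS b 0 0), v ≤ w + 1 / ((j : ℝ) + 1)) ∧
        ∃ y ∈ Icc (0 : ℝ) 1, ε < |ll b (xs K m q) y - ll b x y| := by
    intro j
    obtain ⟨K, m, q, v, h2, h3, y, hy, h4⟩ := hcon (1 / ((j : ℝ) + 1)) (by positivity)
    exact ⟨K, m, q, v, h2, h3, y, hy, h4⟩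
  choose K m q v hval hv y hy hlt using h1
  obtain ⟨φ, X, hφ, hX, hX01, hlim⟩ := helly_prim (x := fun j => xs (K j) (m j) (q j))
    (fun j => xs_mono (hval j).1) (fun j u => xs_mem (hval j).1 u)
  have hev : ∀ η > 0, ∀ᶠ j : ℕ in atTop, 1 / ((φ j : ℝ) + 1) < η := by
    intro η hη
    have h3 : Tendsto (fun j : ℕ => 1 / ((φ j : ℝ) + 1)) atTop (𝓝 0) :=
      tendsto_one_div_add_atTop_nhds_zero_nat.comp hφ.tendsto_atTop
    exact (tendsto_order.1 h3).2 η hη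
  have hX' : MinProf b X := by
    refine ⟨hX, hX01, fun η hη => ?_⟩
    obtain ⟨j, hj1, hj2⟩ := ((hev η hη).and (hlim η hη)).exists
    refine ⟨K (φ j), m (φ j), q (φ j), v (φ j), hval _, fun w hw => ?_, hj2⟩
    have := hv (φ j) w hw
    linarith
  obtain ⟨j, hj⟩ := (hlim (ε / b) (by positivity)).exists
  have h5 := hj (y (φ j)) (hy (φ j))
  have h6 := hlt (φ j)
  have h7 : |ll b (xs (K (φ j)) (m (φ j)) (q (φ j))) (y (φ j)) - ll b X (y (φ j))| ≤
      b * |prim (xs (K (φ j)) (m (φ j)) (q (φ j))) (y (φ j)) - prim X (y (φ j))| :=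
    tr_dist (L := prim (xs (K (φ j)) (m (φ j)) (q (φ j)))) (M := prim X) hb
  rw [ll_unique hb hR hI hF hX' hx _ (hy (φ j))] at h7
  have h8 : b * |prim (xs (K (φ j)) (m (φ j)) (q (φ j))) (y (φ j)) - prim X (y (φ j))| ≤
      b * (ε / b) := mul_le_mul_of_nonneg_left h5 hb.le
  have h9 : b * (ε / b) = ε := by field_simp
  linarith

end uniq

end Vale.Agent.P146.R3.H952
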